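import Vale.Agent.P310.Every

/-!
# P310: deciding k-WL equivalence needs time n^{Omega(k)}, for every k ≥ 2 and at all large sizes

There is one constant `c > 0` such that for every `k ≥ 2` and every deterministic multi-tape Turing
machine `M` deciding `k`-WL equivalence: for all large `n` some pair of graphs with at most `n`
vertices makes `M` run for more than `n^{ck}` steps; no time bound of `M` is `O(n^{ck})`; every
nondecreasing time bound is at least `n^{ck}` for all large `n`.  Consequently there is no function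
`g` with `g(k) = o(k)` such that for every `k ≥ 2` some machine decides `k`-WL equivalence in time
`O(n^{g(k)})`.
-/

open P310

theorem Vale.Agent.Results.P310.WLEveryK.result :
    (∃ c : ℝ, 0 < c ∧ ∀ k : ℕ, 2 ≤ k → ∀ M : TM, Decides k M →
      (∃ n₀ : ℕ, ∀ n : ℕ, n₀ ≤ n → ∃ n' : ℕ, n' ≤ n ∧ ∃ G H : SimpleGraph (Fin n'),
        ¬ M.HaltsIn (inputWord G H) ⌊(n : ℝ) ^ (c * (k : ℝ))⌋₊) ∧
      ∀ T : ℕ → ℕ, TimeBound M T →
        (¬ (fun n : ℕ => (T n : ℝ)) =O[Filter.atTop] (fun n : ℕ => (n : ℝ) ^ (c * (k : ℝ)))) ∧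
        (Monotone T → ∀ᶠ n : ℕ in Filter.atTop, (n : ℝ) ^ (c * (k : ℝ)) ≤ T n)) ∧
    ¬ ∃ g : ℕ → ℝ, (g =o[Filter.atTop] fun k : ℕ => (k : ℝ)) ∧
      ∀ k : ℕ, 2 ≤ k → ∃ (M : TM) (T : ℕ → ℕ), Decides k M ∧ TimeBound M T ∧
        (fun n : ℕ => (T n : ℝ)) =O[Filter.atTop] (fun n : ℕ => (n : ℝ) ^ g k) := by
  have h := final_form
  refine ⟨h, ?_⟩
  rintro ⟨g, hg, hA⟩
  obtain ⟨c, hc, hk⟩ := h
  obtain ⟨k₁, hk₁⟩ := Filter.eventually_atTop.mp (hg.def hc)
  obtain ⟨M, T, hM, hT, hO⟩ := hA (max k₁ 2) (le_max_right _ _)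
  refine ((hk (max k₁ 2) (le_max_right _ _) M hM).2 T hT).1 (hO.trans ?_)
  have h2 := hk₁ (max k₁ 2) (le_max_left _ _)
  have h3 : g (max k₁ 2) ≤ c * ((max k₁ 2 : ℕ) : ℝ) := by
    refine (Real.le_norm_self _).trans (h2.trans (le_of_eq ?_))
    rw [Real.norm_of_nonneg (Nat.cast_nonneg _)]
  refine Asymptotics.IsBigO.of_bound 1 ?_
  filter_upwards [Filter.eventually_ge_atTop 1] with n hn
  have hn1 : (1 : ℝ) ≤ (n : ℝ) := by exact_mod_cast hn
  rw [Real.norm_of_nonneg (by positivity), Real.norm_of_nonneg (by positivity), one_mul]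
  exact Real.rpow_le_rpow_of_exponent_le hn1 h3
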