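import Vale.Agent.P310.Assembly
import Vale.Agent.P310.XSound
import Vale.Agent.P310.XComplete
import Vale.Agent.P310.Star
import Vale.Agent.P310.HornDerv
import Vale.Agent.P310.ClosureAll
import Vale.Agent.P310.TMtoSM
import Vale.Agent.P310.CmdCompile
import Vale.Agent.P310.Gen
import Vale.Agent.P310.ExCompile
import Vale.Agent.P310.HornSim
import Vale.Agent.P310.Sep
import Vale.Agent.P310.DigitEx
import Vale.Agent.P310.DigitIso
import Vale.Agent.P310.Iso

/-!
# P310: deciding k-WL equivalence needs time n^{Omega(k)}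

First part: there is `c > 0` such that for all large `k` no deterministic multi-tape Turing machine
deciding `k`-WL equivalence runs in time `O(n^{ck})`.

Second part: consequently there is no function `g` with `g(k) = o(k)` such that for every `k ≥ 2`
some machine decides `k`-WL equivalence in time `O(n^{g(k)})`.
-/

open P310

theorem Vale.Agent.Results.P310.WLLowerBound.result :
    (∃ c : ℝ, 0 < c ∧ ∃ k₀ : ℕ, ∀ k : ℕ, k₀ ≤ k → ∀ M : TM, Decides k M → ∀ T : ℕ → ℕ,
      TimeBound M T →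
        ¬ (fun n : ℕ => (T n : ℝ)) =O[Filter.atTop] (fun n : ℕ => (n : ℝ) ^ (c * (k : ℝ)))) ∧
    ¬ ∃ g : ℕ → ℝ, (g =o[Filter.atTop] fun k : ℕ => (k : ℝ)) ∧
      ∀ k : ℕ, 2 ≤ k → ∃ (M : TM) (T : ℕ → ℕ), Decides k M ∧ TimeBound M T ∧
        (fun n : ℕ => (T n : ℝ)) =O[Filter.atTop] (fun n : ℕ => (n : ℝ) ^ g k) := by
  have h : Goal := as_main XSys.xs XSys.xc Horn.st Horn.hc Horn.closure ts cm (gn ex) hs sp dx di iv
  refine ⟨h, ?_⟩
  rintro ⟨g, hg, hA⟩
  obtain ⟨c, hc, k₀, hk⟩ := h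
  have h1 := hg.def hc
  obtain ⟨k₁, hk₁⟩ := Filter.eventually_atTop.mp h1
  set k := max (max k₀ k₁) 2 with hkdef
  obtain ⟨M, T, hM, hT, hO⟩ := hA k (le_max_right _ _)
  refine hk k (le_trans (le_max_left _ _) (le_max_left _ _)) M hM T hT (hO.trans ?_)
  have h2 := hk₁ k (le_trans (le_max_right _ _) (le_max_left _ _))
  have h3 : g k ≤ c * (k : ℝ) := by
    have h4 : g k ≤ ‖g k‖ := Real.le_norm_self _
    have h5 : ‖(k : ℝ)‖ = (k : ℝ) := Real.norm_of_nonneg (Nat.cast_nonneg k)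
    rw [h5] at h2
    exact h4.trans h2
  refine Asymptotics.IsBigO.of_bound 1 ?_
  filter_upwards [Filter.eventually_ge_atTop 1] with n hn
  have hn1 : (1 : ℝ) ≤ (n : ℝ) := by exact_mod_cast hn
  rw [Real.norm_of_nonneg (by positivity), Real.norm_of_nonneg (by positivity), one_mul]
  exact Real.rpow_le_rpow_of_exponent_le hn1 h3
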